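import Vale.Agent.H24.TH.L5
import Vale.Agent.H24.TH.K

/-!
P075, question 2: the dyadic triangular Hilbert form is bounded on `L³ × L³ × L³`.
-/

namespace Vale.Agent.Results.P075.DyadicBounded

open Vale.Agent.H24.TH MeasureTheory

/-- There is a constant `C` such that for all real bounded compactly supported measurable
`F_0, F_1, F_2` and every finite set `S` of scales, the sum over all admissible triples of dyadic
intervals at the scales in `S` of `|L_I(F_0, F_1, F_2)|` is at most `C ∏ ‖F_v‖_3`; in particular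
`|Λ^d_{S,ε}(F_0, F_1, F_2)| ≤ C ∏ ‖F_v‖_3` for all real coefficients `|ε_k| ≤ 1`. -/
theorem _root_.Vale.Agent.Results.P075.DyadicBounded.result :
    ∃ C : ℝ, ∀ F0 F1 F2 : ℝ × ℝ → ℝ,
      (Measurable F0 ∧ (∃ M : ℝ, ∀ x, |F0 x| ≤ M) ∧ HasCompactSupport F0) →
      (Measurable F1 ∧ (∃ M : ℝ, ∀ x, |F1 x| ≤ M) ∧ HasCompactSupport F1) →
      (Measurable F2 ∧ (∃ M : ℝ, ∀ x, |F2 x| ≤ M) ∧ HasCompactSupport F2) →
      ∀ S : Finset ℤ,
        (∀ k ∈ S, Summable (fun n : Adm => |LI F0 F1 F2 k n|)) ∧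
        (∑ k ∈ S, ∑' n : Adm, |LI F0 F1 F2 k n|) ≤ C * (norm3 F0 * norm3 F1 * norm3 F2) ∧
        ∀ ε : ℤ → ℝ, (∀ k ∈ S, |ε k| ≤ 1) →
          |Lam S ε F0 F1 F2| ≤ C * (norm3 F0 * norm3 F1 * norm3 F2) := by
  have hd : Discrete 2000 := fun j F0 F1 F2 => discrete j F0 F1 F2
  refine ⟨3 * 2000, fun F0 F1 F2 h0 h1 h2 S => ?_⟩
  have n0 := nice_of h0.1 h0.2.1 h0.2.2
  have n1 := nice_of h1.1 h1.2.1 h1.2.2
  have n2 := nice_of h2.1 h2.2.1 h2.2.2
  have hC : (0 : ℝ) ≤ 2000 := by norm_num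
  have hb := norm_bound hC hd n0 n1 n2 S
  exact ⟨hb.1, hb.2, fun ε hε => Lam_bound hC hd n0 n1 n2 S ε hε⟩

end Vale.Agent.Results.P075.DyadicBounded
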